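import Vale.Agent.P154.D8.K3.Data
import Vale.Agent.P154.ApxLemma

set_option maxRecDepth 100000

namespace Vale.Agent.P154.D8.K3

open PolyR Cert InT OutT

/-- The quotient polynomial for `j = 1`. -/
noncomputable def S1 (u : ℝ) : ℝ :=
  (35 / 4194304 : ℝ) * u ^ 0 + (-2725 / 16777216 : ℝ) * u ^ 1 + (-11073 / 8388608 : ℝ) * u ^ 2 + (67767 / 8388608 : ℝ) * u ^ 3 + (426481 / 16777216 : ℝ) * u ^ 4 + (-2035889 / 16777216 : ℝ) * u ^ 5 + (-1203003 / 16777216 : ℝ) * u ^ 6 + (9822369 / 16777216 : ℝ) * u ^ 7 + (-8059399 / 16777216 : ℝ) * u ^ 8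

/-- Certificate polynomial. -/
def lpu1 : List ITm := [⟨(-7590017503389390185475349426269531250000000000),0,0⟩,⟨(-178453995708878210280090570449829101562500000000),1,0⟩,⟨(-891988427359672263264656066894531250000000000000),2,0⟩,⟨3632821469627707584661245346069335937500000000000,3,0⟩,⟨7607244291980955522779303750991821289062500000000,4,0⟩,⟨(-24166493865637851873901083883120391845703125000000),5,0⟩,⟨(-9502943264521575141966734165090201004199218750000),6,0⟩,⟨51634448987363231332016183014382175267281702812500,7,0⟩,⟨(-28194073916531007073294358554879374647401466766919),8,0⟩]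

/-- Certificate tree. -/
def tpu1 : OutT := (A (A (A (A (O l) (O l)) (O l)) (A (A (O l) (A (O l) (O l))) (A (A (O l) (A (O l) (O l))) (A (A (O l) (A (O l) (O l))) (A (A (O l) (A (O l) (O l))) (A (A (O l) (O l)) (A (O l) (O l)))))))) (A (A (A (A (A (A (A (O l) (O l)) (A (O l) (O l))) (A (A (O l) (O l)) (A (O l) (O l)))) (A (A (A (O l) (O l)) (O l)) (A (O l) (O l)))) (A (A (A (O l) (O l)) (A (O l) (O l))) (A (O l) (O l)))) (A (A (A (O l) (O l)) (A (O l) (O l))) (A (A (O l) (O l)) (A (O l) (O l))))) (A (A (A (A (O l) (O l)) (A (O l) (O l))) (A (A (A (O l) (O l)) (A (O l) (O l))) (A (A (O l) (O l)) (A (O l) (O l))))) (A (A (A (A (O l) (A (O l) (O l))) (A (A (O l) (O l)) (A (O l) (O l)))) (A (A (A (O l) (A (O l) (O l))) (A (A (O l) (O l)) (A (O l) (O l)))) (A (A (A (O l) (O l)) (A (O l) (A (O l) (O l)))) (A (A (A (O l) (O l)) (A (O l) (O l))) (A (A (O l) (O l)) (A (O l) (O l))))))) (A (A (A (A (A (A (O l) (O l)) (A (O l) (O l))) (A (A (O l) (O l)) (A (O l) (O l)))) (A (A (A (O l) (O l)) (O l)) (A (O l) (O l)))) (A (A (A (O l) (O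 l)) (A (O l) (O l))) (A (O l) (O l)))) (A (A (A (O l) (O l)) (A (O l) (O l))) (A (O l) (O l))))))))

theorem hpu1 (x : ℝ) (h0 : 0 ≤ x) (h1 : x ≤ 1) : evalIL lpu1 x 0 ≤ 0 :=
  uni_le 8 65536 lpu1 (by norm_num) (by norm_num) (by decide +kernel)
    (chkOut_sound (uniPb 8 65536 lpu1) tpu1 0 32768 0 32768 (by decide +kernel)) x h0 h1

/-- Certificate polynomial. -/
def lpl1 : List ITm := [⟨(-33055869153031380847096443176269531250000000000),0,0⟩,⟨151405166157019266393035650253295898437500000000,1,0⟩,⟨891988427359672263264656066894531250000000000000,2,0⟩,⟨(-3632821469627707584661245346069335937500000000000),3,0⟩,⟨(-7607244291980955522779303750991821289062500000000),4,0⟩,⟨24166493865637851873901083883120391845703125000000,5,0⟩,⟨9502943264521575141966734165090201004199218750000,6,0⟩,⟨(-51634448987363231332016183014382175267281702812500),7,0⟩,⟨28194073916531007073294358554879374647401466766919,8,0⟩]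

/-- Certificate tree. -/
def tpl1 : OutT := (A (A (A (A (O l) (O l)) (A (A (O l) (A (O l) (O l))) (A (A (O l) (A (O l) (O l))) (A (A (O l) (O l)) (O l))))) (A (A (A (A (O l) (O l)) (O l)) (A (O l) (O l))) (A (A (O l) (O l)) (A (O l) (O l))))) (A (A (A (A (O l) (O l)) (A (A (O l) (O l)) (A (O l) (O l)))) (A (A (A (O l) (O l)) (A (A (O l) (O l)) (A (O l) (O l)))) (A (A (A (O l) (O l)) (A (O l) (A (O l) (O l)))) (A (A (A (O l) (O l)) (A (O l) (O l))) (A (A (O l) (A (O l) (O l))) (A (A (O l) (O l)) (A (O l) (O l)))))))) (A (A (A (A (A (A (A (O l) (O l)) (A (O l) (O l))) (A (A (O l) (O l)) (A (O l) (O l)))) (A (A (A (O l) (O l)) (A (O l) (O l))) (A (A (O l) (O l)) (A (O l) (O l))))) (A (A (A (A (O l) (O l)) (A (O l) (O l))) (A (O l) (O l))) (A (A (O l) (O l)) (A (O l) (O l))))) (A (A (A (A (O l) (O l)) (A (O l) (O l))) (A (O l) (O l))) (A (A (O l) (O l)) (A (O l) (O l))))) (A (A (A (A (O l) (O l)) (A (O l) (O l))) (A (A (O l) (O l)) (A (O l) (O l)))) (A (A (A (O l) (O l)) (A (O l) (O l))) (A (A (O l) (O l)) (A (A (O l) (O l)) (A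 (O l) (A (O l) (A (O l) (O l)))))))))))

theorem hpl1 (x : ℝ) (h0 : 0 ≤ x) (h1 : x ≤ 1) : evalIL lpl1 x 0 ≤ 0 :=
  uni_le 8 65536 lpl1 (by norm_num) (by norm_num) (by decide +kernel)
    (chkOut_sound (uniPb 8 65536 lpl1) tpl1 0 32768 0 32768 (by decide +kernel)) x h0 h1

/-- Certificate polynomial. -/
def lnu1 : List ITm := [⟨(-1943044480867683887481689453125000000000000000000),0,0⟩,⟨22842111450736410915851593017578125000000000000000,1,0⟩,⟨(-57087259351019024848937988281250000000000000000000),2,0⟩,⟨(-116250287028086642709159851074218750000000000000000),3,0⟩,⟨121715908671695288364468860015869140625000000000000,4,0⟩,⟨193331950925102814991208671064963134765625000000000,5,0⟩,⟨(-38011773058086300567866936660360804016796875000000),6,0⟩,⟨(-103268897974726462664032366028764350534563405625000),7,0⟩,⟨(-28194073916531007073294358554879374647401466766919),8,0⟩]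

/-- Certificate tree. -/
def tnu1 : OutT := (A (A (A (A (O l) (A (O l) (O l))) (A (A (O l) (O l)) (A (O l) (O l)))) (A (A (O l) (O l)) (O l))) (A (A (O l) (A (O l) (O l))) (A (A (A (O l) (O l)) (A (O l) (A (O l) (O l)))) (A (A (A (A (O l) (O l)) (A (O l) (O l))) (A (A (O l) (O l)) (A (O l) (O l)))) (A (A (O l) (O l)) (O l))))))

theorem hnu1 (x : ℝ) (h0 : 0 ≤ x) (h1 : x ≤ 1) : evalIL lnu1 x 0 ≤ 0 :=
  uni_le 8 65536 lnu1 (by norm_num) (by norm_num) (by decide +kernel)
    (chkOut_sound (uniPb 8 65536 lnu1) tnu1 0 32768 0 32768 (by decide +kernel)) x h0 h1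

/-- Certificate polynomial. -/
def lnl1 : List ITm := [⟨(-8462302503176033496856689453125000000000000000000),0,0⟩,⟨(-19379861268098466098308563232421875000000000000000),1,0⟩,⟨57087259351019024848937988281250000000000000000000,2,0⟩,⟨116250287028086642709159851074218750000000000000000,3,0⟩,⟨(-121715908671695288364468860015869140625000000000000),4,0⟩,⟨(-193331950925102814991208671064963134765625000000000),5,0⟩,⟨38011773058086300567866936660360804016796875000000,6,0⟩,⟨103268897974726462664032366028764350534563405625000,7,0⟩,⟨28194073916531007073294358554879374647401466766919,8,0⟩]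

/-- Certificate tree. -/
def tnl1 : OutT := (A (A (O l) (A (O l) (A (O l) (O l)))) (A (A (A (A (O l) (O l)) (A (A (O l) (O l)) (A (O l) (O l)))) (A (A (A (O l) (O l)) (A (O l) (O l))) (A (O l) (O l)))) (A (A (O l) (O l)) (A (O l) (A (O l) (A (O l) (A (O l) (A (O l) (O l)))))))))

theorem hnl1 (x : ℝ) (h0 : 0 ≤ x) (h1 : x ≤ 1) : evalIL lnl1 x 0 ≤ 0 :=
  uni_le 8 65536 lnl1 (by norm_num) (by norm_num) (by decide +kernel)
    (chkOut_sound (uniPb 8 65536 lnl1) tnl1 0 32768 0 32768 (by decide +kernel)) x h0 h1

theorem apx1 (u : ℝ) (h0 : -(207961 / 625000 : ℝ) ≤ u) (h1 : u ≤ 2 * (207961 / 625000 : ℝ)) :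
    |((1 + u)⁻¹) ^ 1 - evalZ Ax.p1 (3 * u) / Ax.D1| ≤ Ax.e1 * |u| ^ Ax.m1 := by
  have hu : 0 < 1 + u := by norm_num at h0 ⊢; linarith
  refine apx_of_S 1 2 _ (S1 u) _ u hu ?_ ?_ ?_
  · simp only [Ax, evalZ_cons, evalZ_nil, S1]
    push_cast
    ring
  · rcases le_total 0 u with hs | hs
    · have hx := hpu1 (u / (2 * (207961 / 625000 : ℝ))) (by positivity) (by rw [div_le_one (by norm_num)]; exact h1)
      have e : evalIL lpu1 (u / (2 * (207961 / 625000 : ℝ))) 0 = 1525878906250000000000000000000000000000000000000000 * (S1 u - Ax.e1 * (1 + u) ^ 1) := by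
        simp only [lpu1, evalIL, List.map_cons, List.map_nil, List.sum_cons, List.sum_nil, S1, Ax]
        push_cast
        ring
      rw [e] at hx
      have := cmul_nonpos (by norm_num) hx
      simp only [Ax] at this ⊢
      linarith
    · have hx := hnu1 (-u / (207961 / 625000 : ℝ)) (by apply div_nonneg <;> [linarith; norm_num]) (by rw [div_le_one (by norm_num)]; linarith)
      have e : evalIL lnu1 (-u / (207961 / 625000 : ℝ)) 0 = 390625000000000000000000000000000000000000000000000000 * (S1 u - Ax.e1 * (1 + u) ^ 1) := by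
        simp only [lnu1, evalIL, List.map_cons, List.map_nil, List.sum_cons, List.sum_nil, S1, Ax]
        push_cast
        ring
      rw [e] at hx
      have := cmul_nonpos (by norm_num) hx
      simp only [Ax] at this ⊢
      linarith
  · rcases le_total 0 u with hs | hs
    · have hx := hpl1 (u / (2 * (207961 / 625000 : ℝ))) (by positivity) (by rw [div_le_one (by norm_num)]; exact h1)
      have e : evalIL lpl1 (u / (2 * (207961 / 625000 : ℝ))) 0 = 1525878906250000000000000000000000000000000000000000 * (-S1 u - Ax.e1 * (1 + u) ^ 1) := by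
        simp only [lpl1, evalIL, List.map_cons, List.map_nil, List.sum_cons, List.sum_nil, S1, Ax]
        push_cast
        ring
      rw [e] at hx
      have := cmul_nonpos (by norm_num) hx
      simp only [Ax] at this ⊢
      linarith
    · have hx := hnl1 (-u / (207961 / 625000 : ℝ)) (by apply div_nonneg <;> [linarith; norm_num]) (by rw [div_le_one (by norm_num)]; linarith)
      have e : evalIL lnl1 (-u / (207961 / 625000 : ℝ)) 0 = 390625000000000000000000000000000000000000000000000000 * (-S1 u - Ax.e1 * (1 + u) ^ 1) := by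
        simp only [lnl1, evalIL, List.map_cons, List.map_nil, List.sum_cons, List.sum_nil, S1, Ax]
        push_cast
        ring
      rw [e] at hx
      have := cmul_nonpos (by norm_num) hx
      simp only [Ax] at this ⊢
      linarith

/-- The quotient polynomial for `j = 2`. -/
noncomputable def S2 (u : ℝ) : ℝ :=
  (1431 / 16777216 : ℝ) * u ^ 0 + (-14473 / 8388608 : ℝ) * u ^ 1 + (-16085 / 1048576 : ℝ) * u ^ 2 + (80059 / 1048576 : ℝ) * u ^ 3 + (1445013 / 4194304 : ℝ) * u ^ 4 + (-9021447 / 8388608 : ℝ) * u ^ 5 + (-16019301 / 8388608 : ℝ) * u ^ 6 + (11787813 / 2097152 : ℝ) * u ^ 7 + (8342339 / 16777216 : ℝ) * u ^ 8 + (-19726633 / 4194304 : ℝ) * u ^ 9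

/-- Certificate polynomial. -/
def lpu2 : List ITm := [⟨(-6840750188530364539474248886108398437500000000000000),0,0⟩,⟨(-159508372087202587863430380821228027343750000000000000),1,0⟩,⟨(-817364517588099533895729109644889831542968750000000000),2,0⟩,⟨2682353265941799119781702756881713867187500000000000000,3,0⟩,⟨8054701510800214783042716184258460998535156250000000000,4,0⟩,⟨(-16732305241153020396913316453380808830261230468750000000),5,0⟩,⟨(-19772200866848125741540498882998891892410278320312500000),6,0⟩,⟨38729024346180968029297952354169434111563471289062500000,7,0⟩,⟨2279990519481114583350323581164692842409725829770234375,8,0⟩,⟨(-14351260209955863395734853397801519038297317193343927553),9,0⟩]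

/-- Certificate tree. -/
def tpu2 : OutT := (A (A (A (A (O l) (O l)) (O l)) (A (A (O l) (A (O l) (O l))) (A (A (O l) (A (O l) (O l))) (A (A (O l) (A (O l) (O l))) (A (A (O l) (A (O l) (O l))) (A (A (O l) (O l)) (A (O l) (O l)))))))) (A (A (A (A (A (A (A (O l) (O l)) (A (O l) (O l))) (A (A (O l) (O l)) (A (O l) (O l)))) (A (A (O l) (O l)) (A (O l) (O l)))) (A (A (A (O l) (O l)) (O l)) (A (O l) (O l)))) (A (A (A (O l) (O l)) (A (O l) (O l))) (A (A (O l) (O l)) (A (O l) (O l))))) (A (A (A (A (O l) (O l)) (A (O l) (O l))) (A (A (O l) (O l)) (A (A (O l) (O l)) (A (O l) (O l))))) (A (A (A (A (O l) (O l)) (A (A (O l) (O l)) (A (O l) (O l)))) (A (A (A (O l) (O l)) (A (O l) (A (O l) (O l)))) (A (A (A (O l) (O l)) (A (O l) (O l))) (A (A (A (O l) (O l)) (A (O l) (O l))) (A (A (O l) (O l)) (A (O l) (O l))))))) (A (A (A (A (A (A (O l) (O l)) (A (O l) (O l))) (A (A (O l) (O l)) (O l))) (A (A (O l) (O l)) (A (O l) (O l)))) (A (A (A (O l) (O l)) (O l)) (A (O l) (O l)))) (A (A (A (O l) (O l)) (O l)) (A (O l) (O l))))))))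

theorem hpu2 (x : ℝ) (h0 : 0 ≤ x) (h1 : x ≤ 1) : evalIL lpu2 x 0 ≤ 0 :=
  uni_le 9 65536 lpu2 (by norm_num) (by norm_num) (by decide +kernel)
    (chkOut_sound (uniPb 9 65536 lpu2) tpu2 0 32768 0 32768 (by decide +kernel)) x h0 h1

/-- Certificate polynomial. -/
def lpl2 : List ITm := [⟨(-27176483285984431859105825424194335937500000000000000),0,0⟩,⟨114233121587403729790821671485900878906250000000000000,1,0⟩,⟨802299739397397661377908661961555480957031250000000000,2,0⟩,⟨(-2682353265941799119781702756881713867187500000000000000),3,0⟩,⟨(-8054701510800214783042716184258460998535156250000000000),4,0⟩,⟨16732305241153020396913316453380808830261230468750000000,5,0⟩,⟨19772200866848125741540498882998891892410278320312500000,6,0⟩,⟨(-38729024346180968029297952354169434111563471289062500000),7,0⟩,⟨(-2279990519481114583350323581164692842409725829770234375),8,0⟩,⟨14351260209955863395734853397801519038297317193343927553,9,0⟩]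

/-- Certificate tree. -/
def tpl2 : OutT := (A (A (A (A (O l) (O l)) (A (A (O l) (A (O l) (O l))) (A (A (A (O l) (O l)) (A (O l) (O l))) (A (O l) (O l))))) (A (A (A (A (O l) (O l)) (O l)) (A (O l) (O l))) (A (A (O l) (O l)) (A (O l) (O l))))) (A (A (A (A (O l) (O l)) (A (O l) (A (O l) (O l)))) (A (A (A (O l) (O l)) (A (O l) (A (O l) (O l)))) (A (A (A (O l) (O l)) (A (O l) (O l))) (A (A (A (O l) (O l)) (A (O l) (O l))) (A (A (O l) (O l)) (A (A (O l) (O l)) (A (O l) (O l)))))))) (A (A (A (A (A (A (A (O l) (O l)) (A (O l) (O l))) (A (A (O l) (O l)) (A (O l) (O l)))) (A (A (A (O l) (O l)) (A (O l) (O l))) (A (A (O l) (O l)) (A (O l) (O l))))) (A (A (A (O l) (O l)) (A (O l) (O l))) (A (A (O l) (O l)) (A (O l) (O l))))) (A (A (A (O l) (O l)) (A (O l) (O l))) (A (A (O l) (O l)) (A (O l) (O l))))) (A (A (A (A (O l) (O l)) (A (O l) (O l))) (A (O l) (O l))) (A (A (A (O l) (O l)) (A (O l) (O l))) (A (A (O l) (O l)) (A (A (O l) (O l)) (A (O l) (A (O l) (A (O l) (O l)))))))))))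

theorem hpl2 (x : ℝ) (h0 : 0 ≤ x) (h1 : x ≤ 1) : evalIL lpl2 x 0 ≤ 0 :=
  uni_le 9 65536 lpl2 (by norm_num) (by norm_num) (by decide +kernel)
    (chkOut_sound (uniPb 9 65536 lpl2) tpl2 0 32768 0 32768 (by decide +kernel)) x h0 h1

/-- Certificate polynomial. -/
def lnu2 : List ITm := [⟨(-3502464096527546644210815429687500000000000000000000000),0,0⟩,⟨40834143254323862493038177490234375000000000000000000000,1,0⟩,⟨(-104622658251276740338653326034545898437500000000000000000),2,0⟩,⟨(-171670609020275143666028976440429687500000000000000000000),3,0⟩,⟨257750448345606873057366917896270751953125000000000000000,4,0⟩,⟨267716883858448326350613063254092941284179687500000000000,5,0⟩,⟨(-158177606934785005932323991063991135139282226562500000000),6,0⟩,⟨(-154916097384723872117191809416677736446253885156250000000),7,0⟩,⟨4559981038962229166700647162329385684819451659540468750,8,0⟩,⟨14351260209955863395734853397801519038297317193343927553,9,0⟩]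

/-- Certificate tree. -/
def tnu2 : OutT := (A (A (A (A (O l) (A (O l) (O l))) (A (A (O l) (O l)) (A (O l) (O l)))) (A (A (O l) (O l)) (O l))) (A (A (O l) (A (O l) (O l))) (A (A (A (O l) (O l)) (A (O l) (A (O l) (A (O l) (O l))))) (A (A (A (A (O l) (O l)) (A (A (O l) (O l)) (A (O l) (O l)))) (A (A (A (O l) (O l)) (O l)) (A (O l) (O l)))) (A (A (O l) (O l)) (O l))))))

theorem hnu2 (x : ℝ) (h0 : 0 ≤ x) (h1 : x ≤ 1) : evalIL lnu2 x 0 ≤ 0 :=
  uni_le 9 65536 lnu2 (by norm_num) (by norm_num) (by decide +kernel)
    (chkOut_sound (uniPb 9 65536 lnu2) tnu2 0 32768 0 32768 (by decide +kernel)) x h0 h1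

/-- Certificate polynomial. -/
def lnl2 : List ITm := [⟨(-13914359442424029111862182617187500000000000000000000000),0,0⟩,⟨(-29243679126375354826450347900390625000000000000000000000),1,0⟩,⟨102694366642866900656372308731079101562500000000000000000,2,0⟩,⟨171670609020275143666028976440429687500000000000000000000,3,0⟩,⟨(-257750448345606873057366917896270751953125000000000000000),4,0⟩,⟨(-267716883858448326350613063254092941284179687500000000000),5,0⟩,⟨158177606934785005932323991063991135139282226562500000000,6,0⟩,⟨154916097384723872117191809416677736446253885156250000000,7,0⟩,⟨(-4559981038962229166700647162329385684819451659540468750),8,0⟩,⟨(-14351260209955863395734853397801519038297317193343927553),9,0⟩]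

/-- Certificate tree. -/
def tnl2 : OutT := (A (A (O l) (A (O l) (A (O l) (O l)))) (A (A (A (A (O l) (O l)) (A (A (O l) (O l)) (A (A (O l) (O l)) (A (O l) (O l))))) (A (A (A (A (O l) (O l)) (O l)) (A (O l) (O l))) (A (O l) (O l)))) (A (A (A (O l) (O l)) (O l)) (A (O l) (A (O l) (A (O l) (A (O l) (A (O l) (O l)))))))))

theorem hnl2 (x : ℝ) (h0 : 0 ≤ x) (h1 : x ≤ 1) : evalIL lnl2 x 0 ≤ 0 :=
  uni_le 9 65536 lnl2 (by norm_num) (by norm_num) (by decide +kernel)
    (chkOut_sound (uniPb 9 65536 lnl2) tnl2 0 32768 0 32768 (by decide +kernel)) x h0 h1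

theorem apx2 (u : ℝ) (h0 : -(207961 / 625000 : ℝ) ≤ u) (h1 : u ≤ 2 * (207961 / 625000 : ℝ)) :
    |((1 + u)⁻¹) ^ 2 - evalZ Ax.p2 (3 * u) / Ax.D2| ≤ Ax.e2 * |u| ^ Ax.m2 := by
  have hu : 0 < 1 + u := by norm_num at h0 ⊢; linarith
  refine apx_of_S 2 2 _ (S2 u) _ u hu ?_ ?_ ?_
  · simp only [Ax, evalZ_cons, evalZ_nil, S2]
    push_cast
    ring
  · rcases le_total 0 u with hs | hs
    · have hx := hpu2 (u / (2 * (207961 / 625000 : ℝ))) (by positivity) (by rw [div_le_one (by norm_num)]; exact h1)
      have e : evalIL lpu2 (u / (2 * (207961 / 625000 : ℝ))) 0 = 119209289550781250000000000000000000000000000000000000000 * (S2 u - Ax.e2 * (1 + u) ^ 2) := by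
        simp only [lpu2, evalIL, List.map_cons, List.map_nil, List.sum_cons, List.sum_nil, S2, Ax]
        push_cast
        ring
      rw [e] at hx
      have := cmul_nonpos (by norm_num) hx
      simp only [Ax] at this ⊢
      linarith
    · have hx := hnu2 (-u / (207961 / 625000 : ℝ)) (by apply div_nonneg <;> [linarith; norm_num]) (by rw [div_le_one (by norm_num)]; linarith)
      have e : evalIL lnu2 (-u / (207961 / 625000 : ℝ)) 0 = 61035156250000000000000000000000000000000000000000000000000 * (S2 u - Ax.e2 * (1 + u) ^ 2) := by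
        simp only [lnu2, evalIL, List.map_cons, List.map_nil, List.sum_cons, List.sum_nil, S2, Ax]
        push_cast
        ring
      rw [e] at hx
      have := cmul_nonpos (by norm_num) hx
      simp only [Ax] at this ⊢
      linarith
  · rcases le_total 0 u with hs | hs
    · have hx := hpl2 (u / (2 * (207961 / 625000 : ℝ))) (by positivity) (by rw [div_le_one (by norm_num)]; exact h1)
      have e : evalIL lpl2 (u / (2 * (207961 / 625000 : ℝ))) 0 = 119209289550781250000000000000000000000000000000000000000 * (-S2 u - Ax.e2 * (1 + u) ^ 2) := by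
        simp only [lpl2, evalIL, List.map_cons, List.map_nil, List.sum_cons, List.sum_nil, S2, Ax]
        push_cast
        ring
      rw [e] at hx
      have := cmul_nonpos (by norm_num) hx
      simp only [Ax] at this ⊢
      linarith
    · have hx := hnl2 (-u / (207961 / 625000 : ℝ)) (by apply div_nonneg <;> [linarith; norm_num]) (by rw [div_le_one (by norm_num)]; linarith)
      have e : evalIL lnl2 (-u / (207961 / 625000 : ℝ)) 0 = 61035156250000000000000000000000000000000000000000000000000 * (-S2 u - Ax.e2 * (1 + u) ^ 2) := by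
        simp only [lnl2, evalIL, List.map_cons, List.map_nil, List.sum_cons, List.sum_nil, S2, Ax]
        push_cast
        ring
      rw [e] at hx
      have := cmul_nonpos (by norm_num) hx
      simp only [Ax] at this ⊢
      linarith

/-- The quotient polynomial for `j = 3`. -/
noncomputable def S3 (u : ℝ) : ℝ :=
  (6243 / 2097152 : ℝ) * u ^ 0 + (354035 / 16777216 : ℝ) * u ^ 1 + (-615951 / 2097152 : ℝ) * u ^ 2 + (-9297741 / 8388608 : ℝ) * u ^ 3 + (38624847 / 8388608 : ℝ) * u ^ 4 + (176333449 / 16777216 : ℝ) * u ^ 5 + (-201388629 / 8388608 : ℝ) * u ^ 6 + (-201875591 / 8388608 : ℝ) * u ^ 7 + (115167127 / 4194304 : ℝ) * u ^ 8 + (98174919 / 4194304 : ℝ) * u ^ 9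

/-- Certificate polynomial. -/
def lpu3 : List ITm := [⟨(-20365931163723871577531099319458007812500000000000000),0,0⟩,⟨924911897396896165446378290653228759765625000000000000,1,0⟩,⟨(-16004187078446916621032869443297386169433593750000000000),2,0⟩,⟨(-39050346948051313309935445431619882583618164062500000000),3,0⟩,⟨107650108852075082910037178586423397064208984375000000000,4,0⟩,⟨163525047195493628868798655263013002872467041015625000000,5,0⟩,⟨(-248568675055619193016502369112308848353103637695312500000),6,0⟩,⟨(-165816268860446622156854487057688220567450376513671875000),7,0⟩,⟨125902319584892197414782018023045569592792563655027187500,8,0⟩,⟨71422923955666427334625943403825625470996343540930042479,9,0⟩]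

/-- Certificate tree. -/
def tpu3 : OutT := (A (A (A (A (A (A (O l) (O l)) (A (O l) (O l))) (A (O l) (O l))) (A (O l) (O l))) (A (A (O l) (O l)) (A (O l) (O l)))) (A (A (A (A (O l) (O l)) (A (O l) (A (O l) (O l)))) (A (A (A (O l) (A (O l) (O l))) (A (A (O l) (A (O l) (O l))) (A (A (O l) (O l)) (A (O l) (O l))))) (A (A (A (A (O l) (O l)) (A (O l) (O l))) (A (A (O l) (O l)) (O l))) (A (A (O l) (O l)) (A (O l) (O l)))))) (A (A (A (A (O l) (O l)) (A (O l) (O l))) (A (A (O l) (O l)) (O l))) (A (A (O l) (O l)) (A (A (O l) (O l)) (A (O l) (A (O l) (A (O l) (A (O l) (O l))))))))))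

theorem hpu3 (x : ℝ) (h0 : 0 ≤ x) (h1 : x ≤ 1) : evalIL lpu3 x 0 ≤ 0 :=
  uni_le 9 65536 lpu3 (by norm_num) (by norm_num) (by decide +kernel)
    (chkOut_sound (uniPb 9 65536 lpu3) tpu3 0 32768 0 32768 (by decide +kernel)) x h0 h1

/-- Certificate polynomial. -/
def lpl3 : List ITm := [⟨(-730112859059772745240479707717895507812500000000000000),0,0⟩,⟨(-2423186966456114532775245606899261474609375000000000000),1,0⟩,⟨15007122177209719466191018000245094299316406250000000000,2,0⟩,⟨38829172959863378635249508079141378402709960937500000000,3,0⟩,⟨(-107650108852075082910037178586423397064208984375000000000),4,0⟩,⟨(-163525047195493628868798655263013002872467041015625000000),5,0⟩,⟨248568675055619193016502369112308848353103637695312500000,6,0⟩,⟨165816268860446622156854487057688220567450376513671875000,7,0⟩,⟨(-125902319584892197414782018023045569592792563655027187500),8,0⟩,⟨(-71422923955666427334625943403825625470996343540930042479),9,0⟩]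

/-- Certificate tree. -/
def tpl3 : OutT := (A (A (A (O l) (A (O l) (O l))) (A (A (A (O l) (O l)) (A (A (O l) (O l)) (A (A (O l) (O l)) (A (O l) (O l))))) (A (A (A (A (O l) (O l)) (O l)) (A (O l) (O l))) (A (O l) (O l))))) (A (A (A (A (O l) (O l)) (A (O l) (O l))) (A (A (O l) (O l)) (A (O l) (O l)))) (A (A (A (O l) (O l)) (A (A (O l) (O l)) (A (O l) (A (O l) (O l))))) (A (A (A (A (O l) (O l)) (A (A (O l) (O l)) (A (O l) (O l)))) (A (A (A (O l) (A (O l) (O l))) (A (A (O l) (O l)) (A (O l) (O l)))) (A (A (A (O l) (O l)) (O l)) (A (O l) (O l))))) (A (A (A (A (O l) (O l)) (O l)) (A (O l) (O l))) (A (O l) (O l)))))))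

theorem hpl3 (x : ℝ) (h0 : 0 ≤ x) (h1 : x ≤ 1) : evalIL lpl3 x 0 ≤ 0 :=
  uni_le 9 65536 lpl3 (by norm_num) (by norm_num) (by decide +kernel)
    (chkOut_sound (uniPb 9 65536 lpl3) tpl3 0 32768 0 32768 (by decide +kernel)) x h0 h1

/-- Certificate polynomial. -/
def lnu3 : List ITm := [⟨(-10427356755826622247695922851562500000000000000000000000),0,0⟩,⟨(-236777445733605418354272842407226562500000000000000000000),1,0⟩,⟨(-2048535946041205327492207288742065429687500000000000000000),2,0⟩,⟨2499222204675284051835868507623672485351562500000000000000,3,0⟩,⟨3444803483266402653121189714765548706054687500000000000000,4,0⟩,⟨(-2616400755127898061900778484208208045959472656250000000000),5,0⟩,⟨(-1988549400444953544132018952898470786824829101562500000000),6,0⟩,⟨663265075441786488627417948230752882269801506054687500000,7,0⟩,⟨251804639169784394829564036046091139185585127310054375000,8,0⟩,⟨(-71422923955666427334625943403825625470996343540930042479),9,0⟩]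

/-- Certificate tree. -/
def tnu3 : OutT := (A (A (A (A (O l) (O l)) (O l)) (A (O l) (O l))) (A (A (O l) (A (O l) (O l))) (A (A (A (O l) (O l)) (A (A (O l) (O l)) (A (A (O l) (O l)) (A (O l) (O l))))) (A (A (A (A (O l) (O l)) (A (O l) (O l))) (A (O l) (O l))) (A (A (O l) (O l)) (O l))))))

theorem hnu3 (x : ℝ) (h0 : 0 ≤ x) (h1 : x ≤ 1) : evalIL lnu3 x 0 ≤ 0 :=
  uni_le 9 65536 lnu3 (by norm_num) (by norm_num) (by decide +kernel)
    (chkOut_sound (uniPb 9 65536 lnu3) tnu3 0 32768 0 32768 (by decide +kernel)) x h0 h1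

/-- Certificate polynomial. -/
def lnl3 : List ITm := [⟨(-373817783838603645563125610351562500000000000000000000000),0,0⟩,⟨620335863412765320390462875366210937500000000000000000000,1,0⟩,⟨1920911638682844091672450304031372070312500000000000000000,2,0⟩,⟨(-2485067069431256232655968517065048217773437500000000000000),3,0⟩,⟨(-3444803483266402653121189714765548706054687500000000000000),4,0⟩,⟨2616400755127898061900778484208208045959472656250000000000,5,0⟩,⟨1988549400444953544132018952898470786824829101562500000000,6,0⟩,⟨(-663265075441786488627417948230752882269801506054687500000),7,0⟩,⟨(-251804639169784394829564036046091139185585127310054375000),8,0⟩,⟨71422923955666427334625943403825625470996343540930042479,9,0⟩]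

/-- Certificate tree. -/
def tnl3 : OutT := (A (A (O l) (A (O l) (A (O l) (A (O l) (A (O l) (O l)))))) (A (A (A (A (A (O l) (O l)) (A (O l) (O l))) (A (O l) (O l))) (A (A (O l) (O l)) (O l))) (A (A (O l) (O l)) (A (O l) (A (O l) (A (O l) (A (O l) (A (O l) (O l)))))))))

theorem hnl3 (x : ℝ) (h0 : 0 ≤ x) (h1 : x ≤ 1) : evalIL lnl3 x 0 ≤ 0 :=
  uni_le 9 65536 lnl3 (by norm_num) (by norm_num) (by decide +kernel)
    (chkOut_sound (uniPb 9 65536 lnl3) tnl3 0 32768 0 32768 (by decide +kernel)) x h0 h1

theorem apx3 (u : ℝ) (h0 : -(207961 / 625000 : ℝ) ≤ u) (h1 : u ≤ 2 * (207961 / 625000 : ℝ)) :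
    |((1 + u)⁻¹) ^ 3 - evalZ Ax.p3 (3 * u) / Ax.D3| ≤ Ax.e3 * |u| ^ Ax.m3 := by
  have hu : 0 < 1 + u := by norm_num at h0 ⊢; linarith
  refine apx_of_S 3 2 _ (S3 u) _ u hu ?_ ?_ ?_
  · simp only [Ax, evalZ_cons, evalZ_nil, S3]
    push_cast
    ring
  · rcases le_total 0 u with hs | hs
    · have hx := hpu3 (u / (2 * (207961 / 625000 : ℝ))) (by positivity) (by rw [div_le_one (by norm_num)]; exact h1)
      have e : evalIL lpu3 (u / (2 * (207961 / 625000 : ℝ))) 0 = 119209289550781250000000000000000000000000000000000000000 * (S3 u - Ax.e3 * (1 + u) ^ 3) := by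
        simp only [lpu3, evalIL, List.map_cons, List.map_nil, List.sum_cons, List.sum_nil, S3, Ax]
        push_cast
        ring
      rw [e] at hx
      have := cmul_nonpos (by norm_num) hx
      simp only [Ax] at this ⊢
      linarith
    · have hx := hnu3 (-u / (207961 / 625000 : ℝ)) (by apply div_nonneg <;> [linarith; norm_num]) (by rw [div_le_one (by norm_num)]; linarith)
      have e : evalIL lnu3 (-u / (207961 / 625000 : ℝ)) 0 = 61035156250000000000000000000000000000000000000000000000000 * (S3 u - Ax.e3 * (1 + u) ^ 3) := by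
        simp only [lnu3, evalIL, List.map_cons, List.map_nil, List.sum_cons, List.sum_nil, S3, Ax]
        push_cast
        ring
      rw [e] at hx
      have := cmul_nonpos (by norm_num) hx
      simp only [Ax] at this ⊢
      linarith
  · rcases le_total 0 u with hs | hs
    · have hx := hpl3 (u / (2 * (207961 / 625000 : ℝ))) (by positivity) (by rw [div_le_one (by norm_num)]; exact h1)
      have e : evalIL lpl3 (u / (2 * (207961 / 625000 : ℝ))) 0 = 119209289550781250000000000000000000000000000000000000000 * (-S3 u - Ax.e3 * (1 + u) ^ 3) := by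
        simp only [lpl3, evalIL, List.map_cons, List.map_nil, List.sum_cons, List.sum_nil, S3, Ax]
        push_cast
        ring
      rw [e] at hx
      have := cmul_nonpos (by norm_num) hx
      simp only [Ax] at this ⊢
      linarith
    · have hx := hnl3 (-u / (207961 / 625000 : ℝ)) (by apply div_nonneg <;> [linarith; norm_num]) (by rw [div_le_one (by norm_num)]; linarith)
      have e : evalIL lnl3 (-u / (207961 / 625000 : ℝ)) 0 = 61035156250000000000000000000000000000000000000000000000000 * (-S3 u - Ax.e3 * (1 + u) ^ 3) := by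
        simp only [lnl3, evalIL, List.map_cons, List.map_nil, List.sum_cons, List.sum_nil, S3, Ax]
        push_cast
        ring
      rw [e] at hx
      have := cmul_nonpos (by norm_num) hx
      simp only [Ax] at this ⊢
      linarith

/-- The quotient polynomial for `j = 4`. -/
noncomputable def S4 (u : ℝ) : ℝ :=
  (46117 / 8388608 : ℝ) * u ^ 0 + (9255495 / 16777216 : ℝ) * u ^ 1 + (12078729 / 8388608 : ℝ) * u ^ 2 + (-219602295 / 16777216 : ℝ) * u ^ 3 + (-64010935 / 2097152 : ℝ) * u ^ 4 + (1140400721 / 16777216 : ℝ) * u ^ 5 + (1093620089 / 8388608 : ℝ) * u ^ 6 + (-933304105 / 16777216 : ℝ) * u ^ 7 + (-1452169979 / 8388608 : ℝ) * u ^ 8 + (-148113771 / 2097152 : ℝ) * u ^ 9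

/-- Certificate polynomial. -/
def lpu4 : List ITm := [⟨(-2205847060565702122403308749198913574218750000000000000),0,0⟩,⟨15138237485598438070155680179595947265625000000000000000,1,0⟩,⟨31276067815655156646243995055556297302246093750000000000,2,0⟩,⟨(-232915077946541823522503720596432685852050781250000000000),3,0⟩,⟨(-357302651067766241304939376355987042188644409179687500000),4,0⟩,⟨528782493567910539516766330776444102525711059570312500000,5,0⟩,⟨674913220986618717725158900052182324880439758300781250000,6,0⟩,⟨(-191648979993869720228306658751292260075348665832519531250),7,0⟩,⟨(-396883150492336652274671785035724009837478657677804609375),8,0⟩,⟨(-107753779790946314614519084573659686084822943108907901811),9,0⟩]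

/-- Certificate tree. -/
def tpu4 : OutT := (A (A (A (A (O l) (O l)) (A (A (O l) (O l)) (A (A (O l) (O l)) (O l)))) (A (A (O l) (O l)) (A (O l) (O l)))) (A (A (A (O l) (O l)) (A (O l) (O l))) (A (A (A (O l) (O l)) (A (A (O l) (O l)) (A (A (O l) (O l)) (A (O l) (O l))))) (A (A (A (A (A (O l) (O l)) (A (O l) (O l))) (A (O l) (O l))) (A (A (O l) (O l)) (O l))) (A (A (O l) (O l)) (O l))))))

theorem hpu4 (x : ℝ) (h0 : 0 ≤ x) (h1 : x ≤ 1) : evalIL lpu4 x 0 ≤ 0 :=
  uni_le 9 65536 lpu4 (by norm_num) (by norm_num) (by decide +kernel)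
    (chkOut_sound (uniPb 9 65536 lpu4) tpu4 0 32768 0 32768 (by decide +kernel)) x h0 h1

/-- Certificate polynomial. -/
def lpl4 : List ITm := [⟨(-2861209047466672927839681506156921386718750000000000000),0,0⟩,⟨(-28626238193214703642297536134719848632812500000000000000),1,0⟩,⟨(-44739962768406770428555319085717201232910156250000000000),2,0⟩,⟨226941819155567576367766130715608596801757812500000000000,3,0⟩,⟨356308887170622404974902269212622195482254028320312500000,4,0⟩,⟨(-528782493567910539516766330776444102525711059570312500000),5,0⟩,⟨(-674913220986618717725158900052182324880439758300781250000),6,0⟩,⟨191648979993869720228306658751292260075348665832519531250,7,0⟩,⟨396883150492336652274671785035724009837478657677804609375,8,0⟩,⟨107753779790946314614519084573659686084822943108907901811,9,0⟩]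

/-- Certificate tree. -/
def tpl4 : OutT := (A (A (A (O l) (O l)) (A (O l) (A (O l) (A (O l) (O l))))) (A (A (A (A (A (O l) (O l)) (A (O l) (A (O l) (O l)))) (A (A (A (O l) (O l)) (A (O l) (O l))) (A (O l) (O l)))) (A (A (A (O l) (O l)) (O l)) (A (O l) (O l)))) (A (A (O l) (O l)) (A (O l) (A (O l) (A (O l) (A (O l) (A (O l) (O l)))))))))

theorem hpl4 (x : ℝ) (h0 : 0 ≤ x) (h1 : x ≤ 1) : evalIL lpl4 x 0 ≤ 0 :=
  uni_le 9 65536 lpl4 (by norm_num) (by norm_num) (by decide +kernel)
    (chkOut_sound (uniPb 9 65536 lpl4) tpl4 0 32768 0 32768 (by decide +kernel)) x h0 h1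

/-- Certificate polynomial. -/
def lnu4 : List ITm := [⟨(-1129393695009639486670494079589843750000000000000000000000),0,0⟩,⟨(-3875388796313200145959854125976562500000000000000000000000),1,0⟩,⟨4003336680403860050719231367111206054687500000000000000000,2,0⟩,⟨14906564988578676705440238118171691894531250000000000000000,3,0⟩,⟨(-11433684834168519721758060043391585350036621093750000000000),4,0⟩,⟨(-8460519897086568632268261292423105640411376953125000000000),5,0⟩,⟨5399305767892949741801271200417458599043518066406250000000,6,0⟩,⟨766595919975478880913226635005169040301394663330078125000,7,0⟩,⟨(-793766300984673304549343570071448019674957315355609218750),8,0⟩,⟨107753779790946314614519084573659686084822943108907901811,9,0⟩]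

/-- Certificate tree. -/
def tnu4 : OutT := (A (A (O l) (O l)) (A (A (O l) (A (O l) (A (O l) (O l)))) (A (A (A (O l) (A (O l) (O l))) (A (A (A (O l) (O l)) (A (O l) (O l))) (A (A (O l) (O l)) (A (O l) (O l))))) (A (A (A (O l) (O l)) (O l)) (A (O l) (O l))))))

theorem hnu4 (x : ℝ) (h0 : 0 ≤ x) (h1 : x ≤ 1) : evalIL lnu4 x 0 ≤ 0 :=
  uni_le 9 65536 lnu4 (by norm_num) (by norm_num) (by decide +kernel)
    (chkOut_sound (uniPb 9 65536 lnu4) tnu4 0 32768 0 32768 (by decide +kernel)) x h0 h1

/-- Certificate polynomial. -/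
def lnl4 : List ITm := [⟨(-1464939032302936539053916931152343750000000000000000000000),0,0⟩,⟨7328316977462964132428169250488281250000000000000000000000,1,0⟩,⟨(-5726715234356066614855080842971801757812500000000000000000),2,0⟩,⟨(-14524276425956324887537032365798950195312500000000000000000),3,0⟩,⟨11401884389459916959196872614803910255432128906250000000000,4,0⟩,⟨8460519897086568632268261292423105640411376953125000000000,5,0⟩,⟨(-5399305767892949741801271200417458599043518066406250000000),6,0⟩,⟨(-766595919975478880913226635005169040301394663330078125000),7,0⟩,⟨793766300984673304549343570071448019674957315355609218750,8,0⟩,⟨(-107753779790946314614519084573659686084822943108907901811),9,0⟩]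

/-- Certificate tree. -/
def tnl4 : OutT := (A (A (A (O l) (O l)) (A (A (O l) (A (O l) (O l))) (A (A (O l) (O l)) (A (O l) (O l))))) (A (A (A (O l) (O l)) (A (O l) (O l))) (A (A (O l) (O l)) (A (O l) (A (O l) (A (O l) (A (O l) (O l))))))))

theorem hnl4 (x : ℝ) (h0 : 0 ≤ x) (h1 : x ≤ 1) : evalIL lnl4 x 0 ≤ 0 :=
  uni_le 9 65536 lnl4 (by norm_num) (by norm_num) (by decide +kernel)
    (chkOut_sound (uniPb 9 65536 lnl4) tnl4 0 32768 0 32768 (by decide +kernel)) x h0 h1

theorem apx4 (u : ℝ) (h0 : -(207961 / 625000 : ℝ) ≤ u) (h1 : u ≤ 2 * (207961 / 625000 : ℝ)) :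
    |((1 + u)⁻¹) ^ 4 - evalZ Ax.p4 (3 * u) / Ax.D4| ≤ Ax.e4 * |u| ^ Ax.m4 := by
  have hu : 0 < 1 + u := by norm_num at h0 ⊢; linarith
  refine apx_of_S 4 2 _ (S4 u) _ u hu ?_ ?_ ?_
  · simp only [Ax, evalZ_cons, evalZ_nil, S4]
    push_cast
    ring
  · rcases le_total 0 u with hs | hs
    · have hx := hpu4 (u / (2 * (207961 / 625000 : ℝ))) (by positivity) (by rw [div_le_one (by norm_num)]; exact h1)
      have e : evalIL lpu4 (u / (2 * (207961 / 625000 : ℝ))) 0 = 59604644775390625000000000000000000000000000000000000000 * (S4 u - Ax.e4 * (1 + u) ^ 4) := by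
        simp only [lpu4, evalIL, List.map_cons, List.map_nil, List.sum_cons, List.sum_nil, S4, Ax]
        push_cast
        ring
      rw [e] at hx
      have := cmul_nonpos (by norm_num) hx
      simp only [Ax] at this ⊢
      linarith
    · have hx := hnu4 (-u / (207961 / 625000 : ℝ)) (by apply div_nonneg <;> [linarith; norm_num]) (by rw [div_le_one (by norm_num)]; linarith)
      have e : evalIL lnu4 (-u / (207961 / 625000 : ℝ)) 0 = 30517578125000000000000000000000000000000000000000000000000 * (S4 u - Ax.e4 * (1 + u) ^ 4) := by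
        simp only [lnu4, evalIL, List.map_cons, List.map_nil, List.sum_cons, List.sum_nil, S4, Ax]
        push_cast
        ring
      rw [e] at hx
      have := cmul_nonpos (by norm_num) hx
      simp only [Ax] at this ⊢
      linarith
  · rcases le_total 0 u with hs | hs
    · have hx := hpl4 (u / (2 * (207961 / 625000 : ℝ))) (by positivity) (by rw [div_le_one (by norm_num)]; exact h1)
      have e : evalIL lpl4 (u / (2 * (207961 / 625000 : ℝ))) 0 = 59604644775390625000000000000000000000000000000000000000 * (-S4 u - Ax.e4 * (1 + u) ^ 4) := by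
        simp only [lpl4, evalIL, List.map_cons, List.map_nil, List.sum_cons, List.sum_nil, S4, Ax]
        push_cast
        ring
      rw [e] at hx
      have := cmul_nonpos (by norm_num) hx
      simp only [Ax] at this ⊢
      linarith
    · have hx := hnl4 (-u / (207961 / 625000 : ℝ)) (by apply div_nonneg <;> [linarith; norm_num]) (by rw [div_le_one (by norm_num)]; linarith)
      have e : evalIL lnl4 (-u / (207961 / 625000 : ℝ)) 0 = 30517578125000000000000000000000000000000000000000000000000 * (-S4 u - Ax.e4 * (1 + u) ^ 4) := by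
        simp only [lnl4, evalIL, List.map_cons, List.map_nil, List.sum_cons, List.sum_nil, S4, Ax]
        push_cast
        ring
      rw [e] at hx
      have := cmul_nonpos (by norm_num) hx
      simp only [Ax] at this ⊢
      linarith

/-- The quotient polynomial for `j = 5`. -/
noncomputable def S5 (u : ℝ) : ℝ :=
  (382701 / 16777216 : ℝ) * u ^ 0 + (14344603 / 8388608 : ℝ) * u ^ 1 + (92989191 / 16777216 : ℝ) * u ^ 2 + (-619528581 / 16777216 : ℝ) * u ^ 3 + (-2126262477 / 16777216 : ℝ) * u ^ 4 + (1083588627 / 8388608 : ℝ) * u ^ 5 + (4883415273 / 8388608 : ℝ) * u ^ 6 + (3088213471 / 16777216 : ℝ) * u ^ 7 + (-5738068551 / 8388608 : ℝ) * u ^ 8 + (-5857744611 / 8388608 : ℝ) * u ^ 9 + (-3325517947 / 16777216 : ℝ) * u ^ 10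

/-- Certificate polynomial. -/
def lpu5 : List ITm := [⟨(-15866899877314821765139640774577856063842773437500000000000000),0,0⟩,⟨105465506989683266425572583102621138095855712890625000000000000,1,0⟩,⟨280439459714932245097429586166981607675552368164062500000000000,2,0⟩,⟨(-1678429068239226455826670526221278123557567596435546875000000000),3,0⟩,⟨(-3722667432432467957237202598988122190348803997039794921875000000),4,0⟩,⟨2509684446977182635715091847004076304333284497261047363281250000,5,0⟩,⟨7534338397005429311308848837511404891314563751220703125000000000,6,0⟩,⟨1585370080742540951933501404332569597512718603240966796875000000,7,0⟩,⟨(-3920585670401531401789701891985814754892496828628326367187500000),8,0⟩,⟨(-2663468252410576330810546770571759743356862154487667658906875000),9,0⟩,⟨(-503127744892654682693305092829177443712539181036795632851323147),10,0⟩]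

/-- Certificate tree. -/
def tpu5 : OutT := (A (A (A (A (O l) (O l)) (A (A (O l) (O l)) (A (O l) (O l)))) (A (A (O l) (O l)) (A (O l) (O l)))) (A (A (O l) (A (O l) (O l))) (A (A (A (O l) (O l)) (A (A (O l) (O l)) (A (A (O l) (O l)) (A (O l) (O l))))) (A (A (A (A (O l) (A (O l) (O l))) (A (O l) (O l))) (A (A (O l) (O l)) (O l))) (A (A (O l) (O l)) (O l))))))

theorem hpu5 (x : ℝ) (h0 : 0 ≤ x) (h1 : x ≤ 1) : evalIL lpu5 x 0 ≤ 0 :=
  uni_le 10 65536 lpu5 (by norm_num) (by norm_num) (by decide +kernel)
    (chkOut_sound (uniPb 10 65536 lpu5) tpu5 0 32768 0 32768 (by decide +kernel)) x h0 h1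

/-- Certificate polynomial. -/
def lpl5 : List ITm := [⟨(-22665035265267974295966268982738256454467773437500000000000000),0,0⟩,⟨(-233675743216669840052190920687280595302581787109375000000000000),1,0⟩,⟨(-451080924905334516060406713222619146108627319335937500000000000),2,0⟩,⟨1564871405063350466477129129998502321541309356689453125000000000,3,0⟩,⟨3684882528125718602643410633708306704647839069366455078125000000,4,0⟩,⟨(-2514713430327285613334726772374671957595273852348327636718750000),5,0⟩,⟨(-7534338397005429311308848837511404891314563751220703125000000000),6,0⟩,⟨(-1585370080742540951933501404332569597512718603240966796875000000),7,0⟩,⟨3920585670401531401789701891985814754892496828628326367187500000,8,0⟩,⟨2663468252410576330810546770571759743356862154487667658906875000,9,0⟩,⟨503127744892654682693305092829177443712539181036795632851323147,10,0⟩]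

/-- Certificate tree. -/
def tpl5 : OutT := (A (A (A (O l) (O l)) (A (O l) (A (O l) (A (O l) (O l))))) (A (A (A (A (A (O l) (O l)) (A (O l) (A (O l) (O l)))) (A (A (A (O l) (O l)) (A (O l) (O l))) (A (O l) (O l)))) (A (A (A (O l) (O l)) (O l)) (A (O l) (O l)))) (A (A (O l) (O l)) (A (O l) (A (O l) (A (O l) (A (O l) (A (O l) (O l)))))))))

theorem hpl5 (x : ℝ) (h0 : 0 ≤ x) (h1 : x ≤ 1) : evalIL lpl5 x 0 ≤ 0 :=
  uni_le 10 65536 lpl5 (by norm_num) (by norm_num) (by decide +kernel)
    (chkOut_sound (uniPb 10 65536 lpl5) tpl5 0 32768 0 32768 (by decide +kernel)) x h0 h1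

/-- Certificate polynomial. -/
def lnu5 : List ITm := [⟨(-16247705474370377487502992153167724609375000000000000000000000000),0,0⟩,⟨(-53998339578717832409893162548542022705078125000000000000000000000),1,0⟩,⟨71792501687022654744941974058747291564941406250000000000000000000,2,0⟩,⟨214838920734620986345813827356323599815368652343750000000000000000,3,0⟩,⟨(-238250715675677949263180966335239820182323455810546875000000000000),4,0⟩,⟨(-80309902303269844342882939104130441738665103912353515625000000000),5,0⟩,⟨120549414352086868980941581400182478261033020019531250000000000000,6,0⟩,⟨(-12682960645940327615468011234660556780101748825927734375000000000),7,0⟩,⟨(-15682342681606125607158807567943259019569987314513305468750000000),8,0⟩,⟨5326936504821152661621093541143519486713724308975335317813750000,9,0⟩,⟨(-503127744892654682693305092829177443712539181036795632851323147),10,0⟩]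

/-- Certificate tree. -/
def tnu5 : OutT := (A (A (O l) (O l)) (A (A (O l) (A (O l) (A (O l) (O l)))) (A (A (A (O l) (A (O l) (O l))) (A (A (A (O l) (O l)) (A (O l) (O l))) (A (A (O l) (O l)) (A (O l) (O l))))) (A (A (A (O l) (O l)) (A (O l) (O l))) (A (O l) (O l))))))

theorem hnu5 (x : ℝ) (h0 : 0 ≤ x) (h1 : x ≤ 1) : evalIL lnu5 x 0 ≤ 0 :=
  uni_le 10 65536 lnu5 (by norm_num) (by norm_num) (by decide +kernel)
    (chkOut_sound (uniPb 10 65536 lnu5) tnu5 0 32768 0 32768 (by decide +kernel)) x h0 h1

/-- Certificate polynomial. -/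
def lnl5 : List ITm := [⟨(-23208996111634405679069459438323974609375000000000000000000000000),0,0⟩,⟨119641980526934958106721751391887664794921875000000000000000000000,1,0⟩,⟨(-115476716775765636111464118584990501403808593750000000000000000000),2,0⟩,⟨(-200303539848108859709072528639808297157287597656250000000000000000),3,0⟩,⟨235832481800045990569178280557331629097461700439453125000000000000,4,0⟩,⟨80470829770473139626711256715989502643048763275146484375000000000,5,0⟩,⟨(-120549414352086868980941581400182478261033020019531250000000000000),6,0⟩,⟨12682960645940327615468011234660556780101748825927734375000000000,7,0⟩,⟨15682342681606125607158807567943259019569987314513305468750000000,8,0⟩,⟨(-5326936504821152661621093541143519486713724308975335317813750000),9,0⟩,⟨503127744892654682693305092829177443712539181036795632851323147,10,0⟩]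

/-- Certificate tree. -/
def tnl5 : OutT := (A (A (A (O l) (O l)) (A (A (O l) (A (O l) (O l))) (A (A (O l) (O l)) (A (O l) (O l))))) (A (A (A (O l) (O l)) (A (O l) (O l))) (A (A (O l) (O l)) (A (O l) (A (O l) (A (O l) (A (O l) (A (O l) (O l)))))))))

theorem hnl5 (x : ℝ) (h0 : 0 ≤ x) (h1 : x ≤ 1) : evalIL lnl5 x 0 ≤ 0 :=
  uni_le 10 65536 lnl5 (by norm_num) (by norm_num) (by decide +kernel)
    (chkOut_sound (uniPb 10 65536 lnl5) tnl5 0 32768 0 32768 (by decide +kernel)) x h0 h1

theorem apx5 (u : ℝ) (h0 : -(207961 / 625000 : ℝ) ≤ u) (h1 : u ≤ 2 * (207961 / 625000 : ℝ)) :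
    |((1 + u)⁻¹) ^ 5 - evalZ Ax.p5 (3 * u) / Ax.D5| ≤ Ax.e5 * |u| ^ Ax.m5 := by
  have hu : 0 < 1 + u := by norm_num at h0 ⊢; linarith
  refine apx_of_S 5 2 _ (S5 u) _ u hu ?_ ?_ ?_
  · simp only [Ax, evalZ_cons, evalZ_nil, S5]
    push_cast
    ring
  · rcases le_total 0 u with hs | hs
    · have hx := hpu5 (u / (2 * (207961 / 625000 : ℝ))) (by positivity) (by rw [div_le_one (by norm_num)]; exact h1)
      have e : evalIL lpu5 (u / (2 * (207961 / 625000 : ℝ))) 0 = 149011611938476562500000000000000000000000000000000000000000000 * (S5 u - Ax.e5 * (1 + u) ^ 5) := by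
        simp only [lpu5, evalIL, List.map_cons, List.map_nil, List.sum_cons, List.sum_nil, S5, Ax]
        push_cast
        ring
      rw [e] at hx
      have := cmul_nonpos (by norm_num) hx
      simp only [Ax] at this ⊢
      linarith
    · have hx := hnu5 (-u / (207961 / 625000 : ℝ)) (by apply div_nonneg <;> [linarith; norm_num]) (by rw [div_le_one (by norm_num)]; linarith)
      have e : evalIL lnu5 (-u / (207961 / 625000 : ℝ)) 0 = 152587890625000000000000000000000000000000000000000000000000000000 * (S5 u - Ax.e5 * (1 + u) ^ 5) := by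
        simp only [lnu5, evalIL, List.map_cons, List.map_nil, List.sum_cons, List.sum_nil, S5, Ax]
        push_cast
        ring
      rw [e] at hx
      have := cmul_nonpos (by norm_num) hx
      simp only [Ax] at this ⊢
      linarith
  · rcases le_total 0 u with hs | hs
    · have hx := hpl5 (u / (2 * (207961 / 625000 : ℝ))) (by positivity) (by rw [div_le_one (by norm_num)]; exact h1)
      have e : evalIL lpl5 (u / (2 * (207961 / 625000 : ℝ))) 0 = 149011611938476562500000000000000000000000000000000000000000000 * (-S5 u - Ax.e5 * (1 + u) ^ 5) := by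
        simp only [lpl5, evalIL, List.map_cons, List.map_nil, List.sum_cons, List.sum_nil, S5, Ax]
        push_cast
        ring
      rw [e] at hx
      have := cmul_nonpos (by norm_num) hx
      simp only [Ax] at this ⊢
      linarith
    · have hx := hnl5 (-u / (207961 / 625000 : ℝ)) (by apply div_nonneg <;> [linarith; norm_num]) (by rw [div_le_one (by norm_num)]; linarith)
      have e : evalIL lnl5 (-u / (207961 / 625000 : ℝ)) 0 = 152587890625000000000000000000000000000000000000000000000000000000 * (-S5 u - Ax.e5 * (1 + u) ^ 5) := by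
        simp only [lnl5, evalIL, List.map_cons, List.map_nil, List.sum_cons, List.sum_nil, S5, Ax]
        push_cast
        ring
      rw [e] at hx
      have := cmul_nonpos (by norm_num) hx
      simp only [Ax] at this ⊢
      linarith

theorem hAx : Ax.OK (-(207961 / 625000 : ℝ)) (2 * (207961 / 625000 : ℝ)) where
  e10 := by simp only [Ax]; norm_num
  e20 := by simp only [Ax]; norm_num
  e30 := by simp only [Ax]; norm_num
  e40 := by simp only [Ax]; norm_num
  e50 := by simp only [Ax]; norm_num
  h1 := fun u a b => by simpa using apx1 u a b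
  h2 := apx2
  h3 := apx3
  h4 := apx4
  h5 := apx5

end Vale.Agent.P154.D8.K3
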